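import Mathlib

/-!
# P154, negative eigenvalue: three polynomial inequalities in two variables

`r` is the modulus of the Fourier coefficient of the large experiment, `s ≤ 11/60` the one of the message.
Bernstein certificates, generated by a script with exact rational arithmetic.
-/

namespace Vale.Agent.P154

noncomputable def FA1 (r s : ℝ) : ℝ :=
  3441 / 5000 + (-2) * s + (-2) * s ^ 2 + 6601 / 5000 * r + (-4) * r * s + (-4) * r * s ^ 2 + 2 * r * s ^ 3 + (-323 / 5000) * r ^ 2 * s ^ 2 + 2 * r ^ 2 * s ^ 3 + (-2) * r ^ 3 + 4 * r ^ 3 * s + 30197 / 5000 * r ^ 3 * s ^ 2 + (-1559 / 2500) * r ^ 3 * s ^ 3 + 2 * r ^ 4 * s + (-8399 / 2500) * r ^ 4 * s ^ 3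

theorem FA1_nonneg_b0_c0 (r : ℝ) (h1 : 0 ≤ r) (h2 : r ≤ 1) :
    0 ≤ 743256 / 6655 + 1425816 / 6655 * r + (-432000 / 1331) * r ^ 3 := by
  have hU : 0 ≤ r := by linarith
  have hV : 0 ≤ 1 - r := by linarith
  have e : 743256 / 6655 + 1425816 / 6655 * r + (-432000 / 1331) * r ^ 3 = 743256 / 6655 * (1 - r) ^ 4 + 879768 / 1331 * r * (1 - r) ^ 3 + 8736984 / 6655 * r ^ 2 * (1 - r) ^ 2 + 5090472 / 6655 * r ^ 3 * (1 - r) + 9072 / 6655 * r ^ 4 := by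
    ring
  rw [e]
  positivity

theorem FA1_nonneg_b0_c1 (r : ℝ) (h1 : 0 ≤ r) (h2 : r ≤ 1) :
    0 ≤ 1833768 / 6655 + 3485448 / 6655 * r + (-1137600 / 1331) * r ^ 3 + 7200 / 121 * r ^ 4 := by
  have hU : 0 ≤ r := by linarith
  have hV : 0 ≤ 1 - r := by linarith
  have e : 1833768 / 6655 + 3485448 / 6655 * r + (-1137600 / 1331) * r ^ 3 + 7200 / 121 * r ^ 4 = 1833768 / 6655 * (1 - r) ^ 4 + 2164104 / 1331 * r * (1 - r) ^ 3 + 21458952 / 6655 * r ^ 2 * (1 - r) ^ 2 + 12103416 / 6655 * r ^ 3 * (1 - r) + 27216 / 6655 * r ^ 4 := by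
    ring
  rw [e]
  positivity

theorem FA1_nonneg_b0_c2 (r : ℝ) (h1 : 0 ≤ r) (h2 : r ≤ 1) :
    0 ≤ 1365168 / 6655 + 2548248 / 6655 * r + (-969 / 2750) * r ^ 2 + (-233838489 / 332750) * r ^ 3 + 14400 / 121 * r ^ 4 := by
  have hU : 0 ≤ r := by linarith
  have hV : 0 ≤ 1 - r := by linarith
  have e : 1365168 / 6655 + 2548248 / 6655 * r + (-969 / 2750) * r ^ 2 + (-233838489 / 332750) * r ^ 3 + 14400 / 121 * r ^ 4 = 1365168 / 6655 * (1 - r) ^ 4 + 1601784 / 1331 * r * (1 - r) ^ 3 + 791670351 / 332750 * r ^ 2 * (1 - r) ^ 2 + 421197813 / 332750 * r ^ 3 * (1 - r) + 657531 / 166375 * r ^ 4 := by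
    ring
  rw [e]
  positivity

theorem FA1_nonneg_b0_c3 (r : ℝ) (h1 : 0 ≤ r) (h2 : r ≤ 1) :
    0 ≤ 274656 / 6655 + 501926 / 6655 * r + 4531 / 2750 * r ^ 2 + (-576459919 / 3327500) * r ^ 3 + 16983721 / 302500 * r ^ 4 := by
  have hU : 0 ≤ r := by linarith
  have hV : 0 ≤ 1 - r := by linarith
  have e : 274656 / 6655 + 501926 / 6655 * r + 4531 / 2750 * r ^ 2 + (-576459919 / 3327500) * r ^ 3 + 16983721 / 302500 * r ^ 4 = 274656 / 6655 * (1 - r) ^ 4 + 320110 / 1331 * r * (1 - r) ^ 3 + 158233951 / 332750 * r ^ 2 * (1 - r) ^ 2 + 736706101 / 3327500 * r ^ 3 * (1 - r) + 2067261 / 1663750 * r ^ 4 := by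
    ring
  rw [e]
  positivity

theorem FA1_nonneg_b0 (r s : ℝ) (h1 : 0 ≤ r) (h2 : r ≤ 1) (h3 : 0 ≤ s) (h4 : s ≤ 11 / 60) :
    0 ≤ FA1 r s := by
  have hU : 0 ≤ s := by linarith
  have hV : 0 ≤ 11 / 60 - s := by linarith
  have e : FA1 r s = (743256 / 6655 + 1425816 / 6655 * r + (-432000 / 1331) * r ^ 3) * ((11 / 60 - s) ^ 3) + (1833768 / 6655 + 3485448 / 6655 * r + (-1137600 / 1331) * r ^ 3 + 7200 / 121 * r ^ 4) * (s * (11 / 60 - s) ^ 2) + (1365168 / 6655 + 2548248 / 6655 * r + (-969 / 2750) * r ^ 2 + (-233838489 / 332750) * r ^ 3 + 14400 / 121 * r ^ 4) * (s ^ 2 * (11 / 60 - s)) + (274656 / 6655 + 501926 / 6655 * r + 4531 / 2750 * r ^ 2 + (-576459919 / 3327500) * r ^ 3 + 16983721 / 302500 * r ^ 4) * (s ^ 3) := by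
    unfold FA1
    ring
  rw [e]
  have c0 := FA1_nonneg_b0_c0 r h1 h2
  have c1 := FA1_nonneg_b0_c1 r h1 h2
  have c2 := FA1_nonneg_b0_c2 r h1 h2
  have c3 := FA1_nonneg_b0_c3 r h1 h2
  positivity

theorem FA1_nonneg (r s : ℝ) (h1 : 0 ≤ r) (h2 : r ≤ 1) (h3 : 0 ≤ s) (h4 : s ≤ 11 / 60) :
    0 ≤ FA1 r s := by
  exact FA1_nonneg_b0 r s h1 h2 h3 h4

noncomputable def FA2 (r s : ℝ) : ℝ :=
  3441 / 5000 + (-2) * s + (-2) * s ^ 2 + (-6601 / 5000) * r + 4 * r * s ^ 2 + 2 * r * s ^ 3 + 4 * r ^ 2 * s + (-323 / 5000) * r ^ 2 * s ^ 2 + (-2) * r ^ 2 * s ^ 3 + 2 * r ^ 3 + (-30197 / 5000) * r ^ 3 * s ^ 2 + (-1559 / 2500) * r ^ 3 * s ^ 3 + (-2) * r ^ 4 * s + 8399 / 2500 * r ^ 4 * s ^ 3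

theorem FA2_nonneg_b0_c0 (r : ℝ) (h1 : 0 ≤ r) (h2 : r ≤ 1 / 4) :
    0 ≤ 743256 / 6655 + (-1425816 / 6655) * r + 432000 / 1331 * r ^ 3 := by
  have hU : 0 ≤ r := by linarith
  have hV : 0 ≤ 1 / 4 - r := by linarith
  have e : 743256 / 6655 + (-1425816 / 6655) * r + 432000 / 1331 * r ^ 3 = 190273536 / 6655 * (1 / 4 - r) ^ 4 + 12178944 / 121 * r * (1 / 4 - r) ^ 3 + 867884544 / 6655 * r ^ 2 * (1 / 4 - r) ^ 2 + 495977472 / 6655 * r ^ 3 * (1 / 4 - r) + 9787392 / 605 * r ^ 4 := by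
    ring
  rw [e]
  positivity

theorem FA2_nonneg_b0_c1 (r : ℝ) (h1 : 0 ≤ r) (h2 : r ≤ 1 / 4) :
    0 ≤ 1833768 / 6655 + (-4277448 / 6655) * r + 14400 / 121 * r ^ 2 + 1296000 / 1331 * r ^ 3 + (-7200 / 121) * r ^ 4 := by
  have hU : 0 ≤ r := by linarith
  have hV : 0 ≤ 1 / 4 - r := by linarith
  have e : 1833768 / 6655 + (-4277448 / 6655) * r + 14400 / 121 * r ^ 2 + 1296000 / 1331 * r ^ 3 + (-7200 / 121) * r ^ 4 = 469444608 / 6655 * (1 / 4 - r) ^ 4 + 29164032 / 121 * r * (1 / 4 - r) ^ 3 + 2008069632 / 6655 * r ^ 2 * (1 / 4 - r) ^ 2 + 1107772416 / 6655 * r ^ 3 * (1 / 4 - r) + 21262176 / 605 * r ^ 4 := by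
    ring
  rw [e]
  positivity

theorem FA2_nonneg_b0_c2 (r : ℝ) (h1 : 0 ≤ r) (h2 : r ≤ 1 / 4) :
    0 ≤ 1365168 / 6655 + (-4132248 / 6655) * r + 7189341 / 30250 * r ^ 2 + 313038489 / 332750 * r ^ 3 + (-14400 / 121) * r ^ 4 := by
  have hU : 0 ≤ r := by linarith
  have hV : 0 ≤ 1 / 4 - r := by linarith
  have e : 1365168 / 6655 + (-4132248 / 6655) * r + 7189341 / 30250 * r ^ 2 + 313038489 / 332750 * r ^ 3 + (-14400 / 121) * r ^ 4 = 349483008 / 6655 * (1 / 4 - r) ^ 4 + 20608512 / 121 * r * (1 / 4 - r) ^ 3 + 33220322808 / 166375 * r ^ 2 * (1 / 4 - r) ^ 2 + 17004911394 / 166375 * r ^ 3 * (1 / 4 - r) + 305856126 / 15125 * r ^ 4 := by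
    ring
  rw [e]
  positivity

theorem FA2_nonneg_b0_c3 (r : ℝ) (h1 : 0 ≤ r) (h2 : r ≤ 1 / 4) :
    0 ≤ 274656 / 6655 + (-1267306 / 6655) * r + 3528841 / 30250 * r ^ 2 + 968309861 / 3327500 * r ^ 3 + (-16983721 / 302500) * r ^ 4 := by
  have hU : 0 ≤ r := by linarith
  have hV : 0 ≤ 1 / 4 - r := by linarith
  have e : 274656 / 6655 + (-1267306 / 6655) * r + 3528841 / 30250 * r ^ 2 + 968309861 / 3327500 * r ^ 3 + (-16983721 / 302500) * r ^ 4 = 70311936 / 6655 * (1 / 4 - r) ^ 4 + 3638912 / 121 * r * (1 / 4 - r) ^ 3 + 4774259608 / 166375 * r ^ 2 * (1 / 4 - r) ^ 2 + 8814313941 / 831875 * r ^ 3 * (1 / 4 - r) + 409032243 / 302500 * r ^ 4 := by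
    ring
  rw [e]
  positivity

theorem FA2_nonneg_b0 (r s : ℝ) (h1 : 0 ≤ r) (h2 : r ≤ 1 / 4) (h3 : 0 ≤ s) (h4 : s ≤ 11 / 60) :
    0 ≤ FA2 r s := by
  have hU : 0 ≤ s := by linarith
  have hV : 0 ≤ 11 / 60 - s := by linarith
  have e : FA2 r s = (743256 / 6655 + (-1425816 / 6655) * r + 432000 / 1331 * r ^ 3) * ((11 / 60 - s) ^ 3) + (1833768 / 6655 + (-4277448 / 6655) * r + 14400 / 121 * r ^ 2 + 1296000 / 1331 * r ^ 3 + (-7200 / 121) * r ^ 4) * (s * (11 / 60 - s) ^ 2) + (1365168 / 6655 + (-4132248 / 6655) * r + 7189341 / 30250 * r ^ 2 + 313038489 / 332750 * r ^ 3 + (-14400 / 121) * r ^ 4) * (s ^ 2 * (11 / 60 - s)) + (274656 / 6655 + (-1267306 / 6655) * r + 3528841 / 30250 * r ^ 2 + 968309861 / 3327500 * r ^ 3 + (-16983721 / 302500) * r ^ 4) * (s ^ 3) := by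
    unfold FA2
    ring
  rw [e]
  have c0 := FA2_nonneg_b0_c0 r h1 h2
  have c1 := FA2_nonneg_b0_c1 r h1 h2
  have c2 := FA2_nonneg_b0_c2 r h1 h2
  have c3 := FA2_nonneg_b0_c3 r h1 h2
  positivity

theorem FA2_nonneg_b1_c0 (r : ℝ) (h1 : 1 / 4 ≤ r) (h2 : r ≤ 1 / 2) :
    0 ≤ 5946048 / 6655 + (-11406528 / 6655) * r + 3456000 / 1331 * r ^ 3 := by
  have hU : 0 ≤ r - 1 / 4 := by linarith
  have hV : 0 ≤ 1 / 2 - r := by linarith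
  have e : 5946048 / 6655 + (-11406528 / 6655) * r + 3456000 / 1331 * r ^ 3 = 78299136 / 605 * (1 / 2 - r) ^ 4 + 2922504192 / 6655 * (r - 1 / 4) * (1 / 2 - r) ^ 3 + 761425920 / 1331 * (r - 1 / 4) ^ 2 * (1 / 2 - r) ^ 2 + 2361028608 / 6655 * (r - 1 / 4) ^ 3 * (1 / 2 - r) + 615112704 / 6655 * (r - 1 / 4) ^ 4 := by
    ring
  rw [e]
  positivity

theorem FA2_nonneg_b1_c1 (r : ℝ) (h1 : 1 / 4 ≤ r) (h2 : r ≤ 1 / 2) :
    0 ≤ 16254144 / 6655 + (-34219584 / 6655) * r + 57600 / 121 * r ^ 2 + 10368000 / 1331 * r ^ 3 + (-28800 / 121) * r ^ 4 := by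
  have hU : 0 ≤ r - 1 / 4 := by linarith
  have hV : 0 ≤ 1 / 2 - r := by linarith
  have e : 16254144 / 6655 + (-34219584 / 6655) * r + 57600 / 121 * r ^ 2 + 10368000 / 1331 * r ^ 3 + (-28800 / 121) * r ^ 4 = 202497408 / 605 * (1 / 2 - r) ^ 4 + 7436952576 / 6655 * (r - 1 / 4) * (1 / 2 - r) ^ 3 + 1921858560 / 1331 * (r - 1 / 4) ^ 2 * (1 / 2 - r) ^ 2 + 6018637824 / 6655 * (r - 1 / 4) ^ 3 * (1 / 2 - r) + 1617242112 / 6655 * (r - 1 / 4) ^ 4 := by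
    ring
  rw [e]
  positivity

theorem FA2_nonneg_b1_c2 (r : ℝ) (h1 : 1 / 4 ≤ r) (h2 : r ≤ 1 / 2) :
    0 ≤ 14524944 / 6655 + (-33929184 / 6655) * r + 14389341 / 15125 * r ^ 2 + 1285038489 / 166375 * r ^ 3 + (-57600 / 121) * r ^ 4 := by
  have hU : 0 ≤ r - 1 / 4 := by linarith
  have hV : 0 ≤ 1 / 2 - r := by linarith
  have e : 14524944 / 6655 + (-33929184 / 6655) * r + 14389341 / 15125 * r ^ 2 + 1285038489 / 166375 * r ^ 3 + (-57600 / 121) * r ^ 4 = 4206038652 / 15125 * (1 / 2 - r) ^ 4 + 150947716188 / 166375 * (r - 1 / 4) * (1 / 2 - r) ^ 3 + 192722383416 / 166375 * (r - 1 / 4) ^ 2 * (1 / 2 - r) ^ 2 + 122490672912 / 166375 * (r - 1 / 4) ^ 3 * (1 / 2 - r) + 34370380512 / 166375 * (r - 1 / 4) ^ 4 := by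
    ring
  rw [e]
  positivity

theorem FA2_nonneg_b1_c3 (r : ℝ) (h1 : 1 / 4 ≤ r) (h2 : r ≤ 1 / 2) :
    0 ≤ 4216848 / 6655 + (-11102818 / 6655) * r + 7159091 / 15125 * r ^ 2 + 8418694751 / 3327500 * r ^ 3 + (-70983721 / 302500) * r ^ 4 := by
  have hU : 0 ≤ r - 1 / 4 := by linarith
  have hV : 0 ≤ 1 / 2 - r := by linarith
  have e : 4216848 / 6655 + (-11102818 / 6655) * r + 7159091 / 15125 * r ^ 2 + 8418694751 / 3327500 * r ^ 3 + (-70983721 / 302500) * r ^ 4 = 22050938763 / 302500 * (1 / 2 - r) ^ 4 + 1526504367 / 6655 * (r - 1 / 4) * (1 / 2 - r) ^ 3 + 238983500972 / 831875 * (r - 1 / 4) ^ 2 * (1 / 2 - r) ^ 2 + 155726064532 / 831875 * (r - 1 / 4) ^ 3 * (1 / 2 - r) + 46720322604 / 831875 * (r - 1 / 4) ^ 4 := by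
    ring
  rw [e]
  positivity

theorem FA2_nonneg_b1 (r s : ℝ) (h1 : 1 / 4 ≤ r) (h2 : r ≤ 1 / 2) (h3 : 0 ≤ s) (h4 : s ≤ 11 / 120) :
    0 ≤ FA2 r s := by
  have hU : 0 ≤ s := by linarith
  have hV : 0 ≤ 11 / 120 - s := by linarith
  have e : FA2 r s = (5946048 / 6655 + (-11406528 / 6655) * r + 3456000 / 1331 * r ^ 3) * ((11 / 120 - s) ^ 3) + (16254144 / 6655 + (-34219584 / 6655) * r + 57600 / 121 * r ^ 2 + 10368000 / 1331 * r ^ 3 + (-28800 / 121) * r ^ 4) * (s * (11 / 120 - s) ^ 2) + (14524944 / 6655 + (-33929184 / 6655) * r + 14389341 / 15125 * r ^ 2 + 1285038489 / 166375 * r ^ 3 + (-57600 / 121) * r ^ 4) * (s ^ 2 * (11 / 120 - s)) + (4216848 / 6655 + (-11102818 / 6655) * r + 7159091 / 15125 * r ^ 2 + 8418694751 / 3327500 * r ^ 3 + (-70983721 / 302500) * r ^ 4) * (s ^ 3) := by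
    unfold FA2
    ring
  rw [e]
  have c0 := FA2_nonneg_b1_c0 r h1 h2
  have c1 := FA2_nonneg_b1_c1 r h1 h2
  have c2 := FA2_nonneg_b1_c2 r h1 h2
  have c3 := FA2_nonneg_b1_c3 r h1 h2
  positivity

theorem FA2_nonneg_b2_c0 (r : ℝ) (h1 : 1 / 4 ≤ r) (h2 : r ≤ 3 / 8) :
    0 ≤ 4216848 / 6655 + (-11102818 / 6655) * r + 7159091 / 15125 * r ^ 2 + 8418694751 / 3327500 * r ^ 3 + (-70983721 / 302500) * r ^ 4 := by
  have hU : 0 ≤ r - 1 / 4 := by linarith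
  have hV : 0 ≤ 3 / 8 - r := by linarith
  have e : 4216848 / 6655 + (-11102818 / 6655) * r + 7159091 / 15125 * r ^ 2 + 8418694751 / 3327500 * r ^ 3 + (-70983721 / 302500) * r ^ 4 = 88203755052 / 75625 * (3 / 8 - r) ^ 4 + 3466986978144 / 831875 * (r - 1 / 4) * (3 / 8 - r) ^ 3 + 4701052512746 / 831875 * (r - 1 / 4) ^ 2 * (3 / 8 - r) ^ 2 + 263398641908 / 75625 * (r - 1 / 4) ^ 3 * (3 / 8 - r) + 110861282493 / 133100 * (r - 1 / 4) ^ 4 := by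
    ring
  rw [e]
  positivity

theorem FA2_nonneg_b2_c1 (r : ℝ) (h1 : 1 / 4 ≤ r) (h2 : r ≤ 3 / 8) :
    0 ≤ 10776144 / 6655 + (-32687724 / 6655) * r + 5713041 / 3025 * r ^ 2 + 12405699363 / 1663750 * r ^ 3 + (-140951163 / 151250) * r ^ 4 := by
  have hU : 0 ≤ r - 1 / 4 := by linarith
  have hV : 0 ≤ 3 / 8 - r := by linarith
  have e : 10776144 / 6655 + (-32687724 / 6655) * r + 5713041 / 3025 * r ^ 2 + 12405699363 / 1663750 * r ^ 3 + (-140951163 / 151250) * r ^ 4 = 192739438152 / 75625 * (3 / 8 - r) ^ 4 + 7361385193824 / 831875 * (r - 1 / 4) * (3 / 8 - r) ^ 3 + 9743033416236 / 831875 * (r - 1 / 4) ^ 2 * (3 / 8 - r) ^ 2 + 538715225088 / 75625 * (r - 1 / 4) ^ 3 * (3 / 8 - r) + 113864816199 / 66550 * (r - 1 / 4) ^ 4 := by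
    ring
  rw [e]
  positivity

theorem FA2_nonneg_b2_c2 (r : ℝ) (h1 : 1 / 4 ≤ r) (h2 : r ≤ 3 / 8) :
    0 ≤ 8756544 / 6655 + (-31736664 / 6655) * r + 35551728 / 15125 * r ^ 2 + 6035314473 / 831875 * r ^ 3 + (-86951163 / 75625) * r ^ 4 := by
  have hU : 0 ≤ r - 1 / 4 := by linarith
  have hV : 0 ≤ 3 / 8 - r := by linarith
  have e : 8756544 / 6655 + (-31736664 / 6655) * r + 35551728 / 15125 * r ^ 2 + 6035314473 / 831875 * r ^ 3 + (-86951163 / 75625) * r ^ 4 = 117507507984 / 75625 * (3 / 8 - r) ^ 4 + 4188535565568 / 831875 * (r - 1 / 4) * (3 / 8 - r) ^ 3 + 5201993239992 / 831875 * (r - 1 / 4) ^ 2 * (3 / 8 - r) ^ 2 + 277212813456 / 75625 * (r - 1 / 4) ^ 3 * (3 / 8 - r) + 29693768919 / 33275 * (r - 1 / 4) ^ 4 := by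
    ring
  rw [e]
  positivity

theorem FA2_nonneg_b2_c3 (r : ℝ) (h1 : 1 / 4 ≤ r) (h2 : r ≤ 3 / 8) :
    0 ≤ 2197248 / 6655 + (-10138448 / 6655) * r + 14115364 / 15125 * r ^ 2 + 1936619722 / 831875 * r ^ 3 + (-33967442 / 75625) * r ^ 4 := by
  have hU : 0 ≤ r - 1 / 4 := by linarith
  have hV : 0 ≤ 3 / 8 - r := by linarith
  have e : 2197248 / 6655 + (-10138448 / 6655) * r + 14115364 / 15125 * r ^ 2 + 1936619722 / 831875 * r ^ 3 + (-33967442 / 75625) * r ^ 4 = 13089031776 / 75625 * (3 / 8 - r) ^ 4 + 299760004992 / 831875 * (r - 1 / 4) * (3 / 8 - r) ^ 3 + 169080341008 / 831875 * (r - 1 / 4) ^ 2 * (3 / 8 - r) ^ 2 + 2481989824 / 75625 * (r - 1 / 4) ^ 3 * (3 / 8 - r) + 545142426 / 33275 * (r - 1 / 4) ^ 4 := by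
    ring
  rw [e]
  positivity

theorem FA2_nonneg_b2 (r s : ℝ) (h1 : 1 / 4 ≤ r) (h2 : r ≤ 3 / 8) (h3 : 11 / 120 ≤ s) (h4 : s ≤ 11 / 60) :
    0 ≤ FA2 r s := by
  have hU : 0 ≤ s - 11 / 120 := by linarith
  have hV : 0 ≤ 11 / 60 - s := by linarith
  have e : FA2 r s = (4216848 / 6655 + (-11102818 / 6655) * r + 7159091 / 15125 * r ^ 2 + 8418694751 / 3327500 * r ^ 3 + (-70983721 / 302500) * r ^ 4) * ((11 / 60 - s) ^ 3) + (10776144 / 6655 + (-32687724 / 6655) * r + 5713041 / 3025 * r ^ 2 + 12405699363 / 1663750 * r ^ 3 + (-140951163 / 151250) * r ^ 4) * ((s - 11 / 120) * (11 / 60 - s) ^ 2) + (8756544 / 6655 + (-31736664 / 6655) * r + 35551728 / 15125 * r ^ 2 + 6035314473 / 831875 * r ^ 3 + (-86951163 / 75625) * r ^ 4) * ((s - 11 / 120) ^ 2 * (11 / 60 - s)) + (2197248 / 6655 + (-10138448 / 6655) * r + 14115364 / 15125 * r ^ 2 + 1936619722 / 831875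 * r ^ 3 + (-33967442 / 75625) * r ^ 4) * ((s - 11 / 120) ^ 3) := by
    unfold FA2
    ring
  rw [e]
  have c0 := FA2_nonneg_b2_c0 r h1 h2
  have c1 := FA2_nonneg_b2_c1 r h1 h2
  have c2 := FA2_nonneg_b2_c2 r h1 h2
  have c3 := FA2_nonneg_b2_c3 r h1 h2
  positivity

theorem FA2_nonneg_b3_c0 (r : ℝ) (h1 : 3 / 8 ≤ r) (h2 : r ≤ 1 / 2) :
    0 ≤ 4216848 / 6655 + (-11102818 / 6655) * r + 7159091 / 15125 * r ^ 2 + 8418694751 / 3327500 * r ^ 3 + (-70983721 / 302500) * r ^ 4 := by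
  have hU : 0 ≤ r - 3 / 8 := by linarith
  have hV : 0 ≤ 1 / 2 - r := by linarith
  have e : 4216848 / 6655 + (-11102818 / 6655) * r + 7159091 / 15125 * r ^ 2 + 8418694751 / 3327500 * r ^ 3 + (-70983721 / 302500) * r ^ 4 = 110861282493 / 133100 * (1 / 2 - r) ^ 4 + 2645679063662 / 831875 * (r - 3 / 8) * (1 / 2 - r) ^ 3 + 3945934520768 / 831875 * (r - 3 / 8) ^ 2 * (1 / 2 - r) ^ 2 + 2740858839584 / 831875 * (r - 3 / 8) ^ 3 * (1 / 2 - r) + 747525161664 / 831875 * (r - 3 / 8) ^ 4 := by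
    ring
  rw [e]
  positivity

theorem FA2_nonneg_b3_c1 (r : ℝ) (h1 : 3 / 8 ≤ r) (h2 : r ≤ 1 / 2) :
    0 ≤ 10776144 / 6655 + (-32687724 / 6655) * r + 5713041 / 3025 * r ^ 2 + 12405699363 / 1663750 * r ^ 3 + (-140951163 / 151250) * r ^ 4 := by
  have hU : 0 ≤ r - 3 / 8 := by linarith
  have hV : 0 ≤ 1 / 2 - r := by linarith
  have e : 10776144 / 6655 + (-32687724 / 6655) * r + 5713041 / 3025 * r ^ 2 + 12405699363 / 1663750 * r ^ 3 + (-140951163 / 151250) * r ^ 4 = 113864816199 / 66550 * (1 / 2 - r) ^ 4 + 5460614143932 / 831875 * (r - 3 / 8) * (1 / 2 - r) ^ 3 + 8347273420128 / 831875 * (r - 3 / 8) ^ 2 * (1 / 2 - r) ^ 2 + 6046265239104 / 831875 * (r - 3 / 8) ^ 3 * (1 / 2 - r) + 1735520529024 / 831875 * (r - 3 / 8) ^ 4 := by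
    ring
  rw [e]
  positivity

theorem FA2_nonneg_b3_c2 (r : ℝ) (h1 : 3 / 8 ≤ r) (h2 : r ≤ 1 / 2) :
    0 ≤ 8756544 / 6655 + (-31736664 / 6655) * r + 35551728 / 15125 * r ^ 2 + 6035314473 / 831875 * r ^ 3 + (-86951163 / 75625) * r ^ 4 := by
  have hU : 0 ≤ r - 3 / 8 := by linarith
  have hV : 0 ≤ 1 / 2 - r := by linarith
  have e : 8756544 / 6655 + (-31736664 / 6655) * r + 35551728 / 15125 * r ^ 2 + 6035314473 / 831875 * r ^ 3 + (-86951163 / 75625) * r ^ 4 = 29693768919 / 33275 * (1 / 2 - r) ^ 4 + 2889412835784 / 831875 * (r - 3 / 8) * (1 / 2 - r) ^ 3 + 4722208903296 / 831875 * (r - 3 / 8) ^ 2 * (1 / 2 - r) ^ 2 + 3782361153408 / 831875 * (r - 3 / 8) ^ 3 * (1 / 2 - r) + 1206264400128 / 831875 * (r - 3 / 8) ^ 4 := by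
    ring
  rw [e]
  positivity

theorem FA2_nonneg_b3_c3 (r : ℝ) (h1 : 3 / 8 ≤ r) (h2 : r ≤ 1 / 2) :
    0 ≤ 2197248 / 6655 + (-10138448 / 6655) * r + 14115364 / 15125 * r ^ 2 + 1936619722 / 831875 * r ^ 3 + (-33967442 / 75625) * r ^ 4 := by
  have hU : 0 ≤ r - 3 / 8 := by linarith
  have hV : 0 ≤ 1 / 2 - r := by linarith
  have e : 2197248 / 6655 + (-10138448 / 6655) * r + 14115364 / 15125 * r ^ 2 + 1936619722 / 831875 * r ^ 3 + (-33967442 / 75625) * r ^ 4 = 545142426 / 33275 * (1 / 2 - r) ^ 4 + 81726597136 / 831875 * (r - 3 / 8) * (1 / 2 - r) ^ 3 + 332354468224 / 831875 * (r - 3 / 8) ^ 2 * (1 / 2 - r) ^ 2 + 485052643072 / 831875 * (r - 3 / 8) ^ 3 * (1 / 2 - r) + 220422569472 / 831875 * (r - 3 / 8) ^ 4 := by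
    ring
  rw [e]
  positivity

theorem FA2_nonneg_b3 (r s : ℝ) (h1 : 3 / 8 ≤ r) (h2 : r ≤ 1 / 2) (h3 : 11 / 120 ≤ s) (h4 : s ≤ 11 / 60) :
    0 ≤ FA2 r s := by
  have hU : 0 ≤ s - 11 / 120 := by linarith
  have hV : 0 ≤ 11 / 60 - s := by linarith
  have e : FA2 r s = (4216848 / 6655 + (-11102818 / 6655) * r + 7159091 / 15125 * r ^ 2 + 8418694751 / 3327500 * r ^ 3 + (-70983721 / 302500) * r ^ 4) * ((11 / 60 - s) ^ 3) + (10776144 / 6655 + (-32687724 / 6655) * r + 5713041 / 3025 * r ^ 2 + 12405699363 / 1663750 * r ^ 3 + (-140951163 / 151250) * r ^ 4) * ((s - 11 / 120) * (11 / 60 - s) ^ 2) + (8756544 / 6655 + (-31736664 / 6655) * r + 35551728 / 15125 * r ^ 2 + 6035314473 / 831875 * r ^ 3 + (-86951163 / 75625) * r ^ 4) * ((s - 11 / 120) ^ 2 * (11 / 60 - s)) + (2197248 / 6655 + (-10138448 / 6655) * r + 14115364 / 15125 * r ^ 2 + 1936619722 / 831875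 * r ^ 3 + (-33967442 / 75625) * r ^ 4) * ((s - 11 / 120) ^ 3) := by
    unfold FA2
    ring
  rw [e]
  have c0 := FA2_nonneg_b3_c0 r h1 h2
  have c1 := FA2_nonneg_b3_c1 r h1 h2
  have c2 := FA2_nonneg_b3_c2 r h1 h2
  have c3 := FA2_nonneg_b3_c3 r h1 h2
  positivity

theorem FA2_nonneg (r s : ℝ) (h1 : 0 ≤ r) (h2 : r ≤ 1 / 2) (h3 : 0 ≤ s) (h4 : s ≤ 11 / 60) :
    0 ≤ FA2 r s := by
  rcases le_total r (1 / 4) with k2 | k2
  · 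
    exact FA2_nonneg_b0 r s h1 k2 h3 h4
  · 
    rcases le_total s (11 / 120) with k4 | k4
    · 
      exact FA2_nonneg_b1 r s k2 h2 h3 k4
    · 
      rcases le_total r (3 / 8) with k6 | k6
      · 
        exact FA2_nonneg_b2 r s k2 k6 k4 h4
      · 
        exact FA2_nonneg_b3 r s k6 h2 k4 h4

noncomputable def FA3 (r s : ℝ) : ℝ :=
  (-79 / 250) + 1 * s ^ 2 + 11601 / 5000 * r ^ 2 + (-2) * r ^ 2 * s + (-1763 / 250) * r ^ 2 * s ^ 2 + (-2) * r ^ 3 * s + 421 / 125 * r ^ 3 * s ^ 3 + (-2) * r ^ 4 + 2 * r ^ 4 * s + 30197 / 5000 * r ^ 4 * s ^ 2 + 2 * r ^ 5 * s + (-8399 / 2500) * r ^ 5 * s ^ 3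

theorem FA3_nonneg_b0_c0 (r : ℝ) (h1 : 1 / 2 ≤ r) (h2 : r ≤ 1) :
    0 ≤ (-68256 / 1331) + 2505816 / 6655 * r ^ 2 + (-432000 / 1331) * r ^ 4 := by
  have hU : 0 ≤ r - 1 / 2 := by linarith
  have hV : 0 ≤ 1 - r := by linarith
  have e : (-68256 / 1331) + 2505816 / 6655 * r ^ 2 + (-432000 / 1331) * r ^ 4 = 4805568 / 6655 * (1 - r) ^ 5 + 46840896 / 6655 * (r - 1 / 2) * (1 - r) ^ 4 + 133434432 / 6655 * (r - 1 / 2) ^ 2 * (1 - r) ^ 3 + 30006720 / 1331 * (r - 1 / 2) ^ 3 * (1 - r) ^ 2 + 58779648 / 6655 * (r - 1 / 2) ^ 4 * (1 - r) + 145152 / 6655 * (r - 1 / 2) ^ 5 := by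
    ring
  rw [e]
  positivity

theorem FA3_nonneg_b0_c1 (r : ℝ) (h1 : 1 / 2 ≤ r) (h2 : r ≤ 1) :
    0 ≤ (-204768 / 1331) + 7121448 / 6655 * r ^ 2 + (-7200 / 121) * r ^ 3 + (-1216800 / 1331) * r ^ 4 + 7200 / 121 * r ^ 5 := by
  have hU : 0 ≤ r - 1 / 2 := by linarith
  have hV : 0 ≤ 1 - r := by linarith
  have e : (-204768 / 1331) + 7121448 / 6655 * r ^ 2 + (-7200 / 121) * r ^ 3 + (-1216800 / 1331) * r ^ 4 + 7200 / 121 * r ^ 5 = 10852704 / 6655 * (1 - r) ^ 5 + 116762688 / 6655 * (r - 1 / 2) * (1 - r) ^ 4 + 341695296 / 6655 * (r - 1 / 2) ^ 2 * (1 - r) ^ 3 + 77348160 / 1331 * (r - 1 / 2) ^ 3 * (1 - r) ^ 2 + 150994944 / 6655 * (r - 1 / 2) ^ 4 * (1 - r) + 435456 / 6655 * (r - 1 / 2) ^ 5 := by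
    ring
  rw [e]
  positivity

theorem FA3_nonneg_b0_c2 (r : ℝ) (h1 : 1 / 2 ≤ r) (h2 : r ≤ 1) :
    0 ≤ (-197508 / 1331) + 32347302 / 33275 * r ^ 2 + (-14400 / 121) * r ^ 3 + (-273438489 / 332750) * r ^ 4 + 14400 / 121 * r ^ 5 := by
  have hU : 0 ≤ r - 1 / 2 := by linarith
  have hV : 0 ≤ 1 - r := by linarith
  have e : (-197508 / 1331) + 32347302 / 33275 * r ^ 2 + (-14400 / 121) * r ^ 3 + (-273438489 / 332750) * r ^ 4 + 14400 / 121 * r ^ 5 = 171021591 / 166375 * (1 - r) ^ 5 + 2210538159 / 166375 * (r - 1 / 2) * (1 - r) ^ 4 + 6745597872 / 166375 * (r - 1 / 2) ^ 2 * (1 - r) ^ 3 + 7708826616 / 166375 * (r - 1 / 2) ^ 3 * (1 - r) ^ 2 + 2993465808 / 166375 * (r - 1 / 2) ^ 4 * (1 - r) + 10520496 / 166375 * (r - 1 / 2) ^ 5 := by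
    ring
  rw [e]
  positivity

theorem FA3_nonneg_b0_c3 (r : ℝ) (h1 : 1 / 2 ≤ r) (h2 : r ≤ 1) :
    0 ≤ (-60996 / 1331) + 9269142 / 33275 * r ^ 2 + (-849059 / 15125) * r ^ 3 + (-77238489 / 332750) * r ^ 4 + 16983721 / 302500 * r ^ 5 := by
  have hU : 0 ≤ r - 1 / 2 := by linarith
  have hV : 0 ≤ 1 - r := by linarith
  have e : (-60996 / 1331) + 9269142 / 33275 * r ^ 2 + (-849059 / 15125) * r ^ 3 + (-77238489 / 332750) * r ^ 4 + 16983721 / 302500 * r ^ 5 = 430512831 / 3327500 * (1 - r) ^ 5 + 949670113 / 332750 * (r - 1 / 2) * (1 - r) ^ 4 + 1572753234 / 166375 * (r - 1 / 2) ^ 2 * (1 - r) ^ 3 + 1831603692 / 166375 * (r - 1 / 2) ^ 3 * (1 - r) ^ 2 + 706126444 / 166375 * (r - 1 / 2) ^ 4 * (1 - r) + 16538088 / 831875 * (r - 1 / 2) ^ 5 := by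
    ring
  rw [e]
  positivity

theorem FA3_nonneg_b0 (r s : ℝ) (h1 : 1 / 2 ≤ r) (h2 : r ≤ 1) (h3 : 0 ≤ s) (h4 : s ≤ 11 / 60) :
    0 ≤ FA3 r s := by
  have hU : 0 ≤ s := by linarith
  have hV : 0 ≤ 11 / 60 - s := by linarith
  have e : FA3 r s = ((-68256 / 1331) + 2505816 / 6655 * r ^ 2 + (-432000 / 1331) * r ^ 4) * ((11 / 60 - s) ^ 3) + ((-204768 / 1331) + 7121448 / 6655 * r ^ 2 + (-7200 / 121) * r ^ 3 + (-1216800 / 1331) * r ^ 4 + 7200 / 121 * r ^ 5) * (s * (11 / 60 - s) ^ 2) + ((-197508 / 1331) + 32347302 / 33275 * r ^ 2 + (-14400 / 121) * r ^ 3 + (-273438489 / 332750) * r ^ 4 + 14400 / 121 * r ^ 5) * (s ^ 2 * (11 / 60 - s)) + ((-60996 / 1331) + 9269142 / 33275 * r ^ 2 + (-849059 / 15125) * r ^ 3 + (-77238489 / 332750) * r ^ 4 + 16983721 / 302500 * r ^ 5) * (s ^ 3) := by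
    unfold FA3
    ring
  rw [e]
  have c0 := FA3_nonneg_b0_c0 r h1 h2
  have c1 := FA3_nonneg_b0_c1 r h1 h2
  have c2 := FA3_nonneg_b0_c2 r h1 h2
  have c3 := FA3_nonneg_b0_c3 r h1 h2
  positivity

theorem FA3_nonneg (r s : ℝ) (h1 : 1 / 2 ≤ r) (h2 : r ≤ 1) (h3 : 0 ≤ s) (h4 : s ≤ 11 / 60) :
    0 ≤ FA3 r s := by
  exact FA3_nonneg_b0 r s h1 h2 h3 h4

end Vale.Agent.P154
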