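import Vale.Agent.P154.G.KeyXG
import Vale.Agent.P154.AF.Poly

/-!
# P154, negative eigenvalue: the `x`-inequality for a small message and an arbitrary second experiment

`a` is a message with `al3 a ≤ (11/60)^2`, `b` is any point of the simplex:
`S6 (K2 a) b ≤ 6 (al + be - al be / 250 - 171/250 al (hh b - 1 + 49/20 be))`.

As in `G/KeyXG.lean`: `al + be + NumF / DF = 1 - n0 / DF`, `DF ≤ D1 s t`, and `n0 - S * D1 s t` is affine in the cubic invariant `A ≥ -s^3` of the message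
(with a nonnegative coefficient) and affine in `ψ = ph3W b`; the three possible end points of `ψ` give the three polynomials of `AF/Poly.lean`.
-/

namespace Vale.Agent.P154

theorem ga_nonneg (s t A ψ : ℝ) (hs0 : 0 ≤ s) (hs1 : s ≤ 11 / 60) (ht0 : 0 ≤ t) (ht1 : t ≤ 1)
    (hA : -s ^ 3 ≤ A)
    (k1 : (1 + t) * ψ ≤ t ^ 3) (k2 : -t ^ 3 ≤ (1 - t) * ψ) (k3 : t ^ 2 - 1 / 2 ≤ ψ) :
    0 ≤ (1 - s ^ 2 - t ^ 2 - s ^ 2 * t ^ 2) * (1 - s ^ 2 * t ^ 2) + 2 * t ^ 2 * (1 - t ^ 2) * A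
      + 2 * s ^ 2 * (1 - s ^ 2) * (t ^ 4 + (1 - t ^ 2) * ψ)
      - (1 - s ^ 2 - t ^ 2 + 1 / 250 * s ^ 2 * t ^ 2 + 171 / 250 * s ^ 2 * (2 * ψ + 9 / 20 * t ^ 2))
        * D1 s t := by
  obtain ⟨c, hc⟩ : ∃ c : ℝ, c = 2 * s ^ 2 * (1 - s ^ 2) * (1 - t ^ 2) - 171 / 125 * s ^ 2 * D1 s t :=
    ⟨_, rfl⟩
  obtain ⟨G0, hG0⟩ : ∃ G0 : ℝ, G0 = (1 - s ^ 2 - t ^ 2 - s ^ 2 * t ^ 2) * (1 - s ^ 2 * t ^ 2)
      + 2 * t ^ 2 * (1 - t ^ 2) * (-s ^ 3) + 2 * s ^ 2 * (1 - s ^ 2) * t ^ 4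
      - (1 - s ^ 2 - t ^ 2 + 1 / 250 * s ^ 2 * t ^ 2 + 171 / 250 * s ^ 2 * (9 / 20 * t ^ 2))
        * D1 s t := ⟨_, rfl⟩
  have hsplit : (1 - s ^ 2 - t ^ 2 - s ^ 2 * t ^ 2) * (1 - s ^ 2 * t ^ 2) + 2 * t ^ 2 * (1 - t ^ 2) * A
      + 2 * s ^ 2 * (1 - s ^ 2) * (t ^ 4 + (1 - t ^ 2) * ψ)
      - (1 - s ^ 2 - t ^ 2 + 1 / 250 * s ^ 2 * t ^ 2 + 171 / 250 * s ^ 2 * (2 * ψ + 9 / 20 * t ^ 2))
        * D1 s t = G0 + ψ * c + 2 * t ^ 2 * (1 - t ^ 2) * (A + s ^ 3) := by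
    rw [hG0, hc]; ring
  rw [hsplit]
  have ht2 : t ^ 2 ≤ 1 := by nlinarith
  have hpA : 0 ≤ 2 * t ^ 2 * (1 - t ^ 2) * (A + s ^ 3) :=
    mul_nonneg (mul_nonneg (by positivity) (by linarith)) (by linarith)
  have hmain : 0 ≤ G0 + ψ * c := by
    rcases elim t ψ c ht0 ht1 k1 k2 k3 with b | ⟨bs, b⟩ | ⟨bs, b⟩
    · have e : (1 + t) * G0 + t ^ 2 * (t * c) = t ^ 2 * s ^ 2 * FA1 t s := by
        rw [hG0, hc]; unfold FA1 D1; ring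
      have hF := FA1_nonneg t s ht0 ht1 hs0 hs1
      have h1 : 0 ≤ t ^ 2 * s ^ 2 * FA1 t s := mul_nonneg (by positivity) hF
      have h2 : 0 ≤ (1 + t) * (G0 + ψ * c) := by nlinarith
      exact nonneg_of_mul_nonneg_right h2 (by linarith)
    · have e : (1 - t) * G0 + t ^ 2 * ((-t) * c) = t ^ 2 * s ^ 2 * FA2 t s := by
        rw [hG0, hc]; unfold FA2 D1; ring
      have hF := FA2_nonneg t s ht0 bs hs0 hs1
      have h1 : 0 ≤ t ^ 2 * s ^ 2 * FA2 t s := mul_nonneg (by positivity) hF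
      have h2 : 0 ≤ (1 - t) * (G0 + ψ * c) := by nlinarith
      exact nonneg_of_mul_nonneg_right h2 (by linarith)
    · have e : G0 + (t ^ 2 - 1 / 2) * c = s ^ 2 * FA3 t s := by
        rw [hG0, hc]; unfold FA3 D1; ring
      have hF := FA3_nonneg t s bs ht1 hs0 hs1
      have h1 : 0 ≤ s ^ 2 * FA3 t s := mul_nonneg (by positivity) hF
      have ht2p : 0 < t ^ 2 := by positivity
      have h2 : 0 ≤ t ^ 2 * (G0 + ψ * c) := by nlinarith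
      exact nonneg_of_mul_nonneg_right h2 ht2p
  linarith

theorem half_boundA (s t φ ψ al be A B U : ℝ) (hs0 : 0 ≤ s) (hs1 : s ≤ 11 / 60) (ht0 : 0 ≤ t)
    (ht1 : t ≤ 1) (hal : s ^ 2 = al) (hbe : t ^ 2 = be)
    (h2 : -s ^ 3 ≤ (1 - s) * φ) (h3 : s ^ 2 - 1 / 2 ≤ φ)
    (k1 : (1 + t) * ψ ≤ t ^ 3) (k2 : -t ^ 3 ≤ (1 - t) * ψ) (k3 : t ^ 2 - 1 / 2 ≤ ψ)
    (hA : A = al ^ 2 + (1 - al) * φ) (hB : B = be ^ 2 + (1 - be) * ψ)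
    (hU : U ^ 2 ≤ al ^ 3 * be ^ 3) (hD : 0 < DF al be U) :
    al + be + NumF al be A B U / DF al be U ≤
      al + be - 1 / 250 * al * be - 171 / 250 * al * (2 * ψ + 9 / 20 * be) := by
  have hs1' : s ≤ 1 := by linarith
  have hal0 : 0 ≤ al := by rw [← hal]; positivity
  have hbe0 : 0 ≤ be := by rw [← hbe]; positivity
  have hal1 : al ≤ 1 := by rw [← hal]; nlinarith
  have hbe1 : be ≤ 1 := by rw [← hbe]; nlinarith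
  have hAs : -s ^ 3 ≤ A := by
    have e : A = s ^ 4 + (1 + s) * ((1 - s) * φ) := by rw [hA, ← hal]; ring
    have : (1 + s) * (-s ^ 3) ≤ (1 + s) * ((1 - s) * φ) :=
      mul_le_mul_of_nonneg_left h2 (by linarith)
    have e2 : (1 + s) * (-s ^ 3) = -s ^ 3 - s ^ 4 := by ring
    rw [e]
    linarith
  -- `U ≤ s^3 t^3`
  have hst : 0 ≤ s ^ 3 * t ^ 3 := by positivity
  have hU2 : U ^ 2 ≤ (s ^ 3 * t ^ 3) ^ 2 := by
    have e : (s ^ 3 * t ^ 3) ^ 2 = al ^ 3 * be ^ 3 := by rw [← hal, ← hbe]; ring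
    rw [e]; exact hU
  have hU1 : U ≤ s ^ 3 * t ^ 3 := (abs_le_of_sq_le_sq' hU2 hst).2
  have hDD : DF al be U ≤ D1 s t := by
    unfold DF D1
    rw [← hal, ← hbe]
    nlinarith
  -- the numerator
  obtain ⟨n0, hn0⟩ : ∃ n0 : ℝ, n0 = (1 - al - be - al * be) * (1 - al * be) + 2 * be * (1 - be) * A
      + 2 * al * (1 - al) * B := ⟨_, rfl⟩
  have hN : NumF al be A B U = DF al be U * (1 - al - be) - n0 := by
    rw [hn0]; unfold NumF DF; ring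
  have hA1 : (3 * al - 1) / 2 ≤ A := by
    have : 0 ≤ (1 - al) * (φ - (al - 1 / 2)) := mul_nonneg (by linarith) (by rw [← hal]; linarith)
    rw [hA]; nlinarith
  have hB1 : (3 * be - 1) / 2 ≤ B := by
    have : 0 ≤ (1 - be) * (ψ - (be - 1 / 2)) := mul_nonneg (by linarith) (by rw [← hbe]; linarith)
    rw [hB]; nlinarith
  have hn1 : 0 ≤ n0 := by
    have e1 : 0 ≤ 2 * be * (1 - be) * (A - (3 * al - 1) / 2) :=
      mul_nonneg (mul_nonneg (by linarith) (by linarith)) (by linarith)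
    have e2 : 0 ≤ 2 * al * (1 - al) * (B - (3 * be - 1) / 2) :=
      mul_nonneg (mul_nonneg (by linarith) (by linarith)) (by linarith)
    have e3 : 0 ≤ (1 - al) ^ 2 * (1 - be) ^ 2 := by positivity
    have e4 : n0 = (1 - al) ^ 2 * (1 - be) ^ 2 + 2 * be * (1 - be) * (A - (3 * al - 1) / 2)
        + 2 * al * (1 - al) * (B - (3 * be - 1) / 2) := by
      rw [hn0]; ring
    rw [e4]
    linarith
  obtain ⟨S, hS⟩ : ∃ S : ℝ, S = 1 - (al + be - 1 / 250 * al * be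
      - 171 / 250 * al * (2 * ψ + 9 / 20 * be)) := ⟨_, rfl⟩
  have hGe : n0 - S * D1 s t = (1 - s ^ 2 - t ^ 2 - s ^ 2 * t ^ 2) * (1 - s ^ 2 * t ^ 2)
      + 2 * t ^ 2 * (1 - t ^ 2) * A
      + 2 * s ^ 2 * (1 - s ^ 2) * (t ^ 4 + (1 - t ^ 2) * ψ)
      - (1 - s ^ 2 - t ^ 2 + 1 / 250 * s ^ 2 * t ^ 2 + 171 / 250 * s ^ 2 * (2 * ψ + 9 / 20 * t ^ 2))
        * D1 s t := by
    rw [hn0, hS, hB, ← hal, ← hbe]
    ring
  have hG : 0 ≤ n0 - S * D1 s t := by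
    rw [hGe]
    exact ga_nonneg s t A ψ hs0 hs1 ht0 ht1 hAs k1 k2 k3
  have hSD : S * DF al be U ≤ n0 := by
    rcases le_total S 0 with hS0 | hS0
    · have : S * DF al be U ≤ 0 := mul_nonpos_of_nonpos_of_nonneg hS0 hD.le
      linarith
    · have : S * DF al be U ≤ S * D1 s t := mul_le_mul_of_nonneg_left hDD hS0
      linarith
  have hq : NumF al be A B U / DF al be U ≤ 1 - S - al - be := by
    rw [div_le_iff₀ hD, hN]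
    have e : (1 - S - al - be) * DF al be U = DF al be U * (1 - al - be) - S * DF al be U := by
      ring
    rw [e]
    linarith
  rw [hS] at hq
  linarith

theorem key_xa (a0 a1 a2 b0 b1 b2 : ℝ) (ha : a0 + a1 + a2 = 0) (hb : b0 + b1 + b2 = 0)
    (ha0 : -1 < a0) (ha1 : -1 < a1) (ha2 : -1 < a2)
    (hb0 : -1 ≤ b0) (hb1 : -1 ≤ b1) (hb2 : -1 ≤ b2) (hsm : al3 a0 a1 a2 ≤ (11 / 60) ^ 2) :
    S6 (K2 a0 a1 a2) b0 b1 b2 ≤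
      6 * (al3 a0 a1 a2 + al3 b0 b1 b2 - 1 / 250 * al3 a0 a1 a2 * al3 b0 b1 b2
        - 171 / 250 * al3 a0 a1 a2 * (hh b0 b1 b2 - 1 + 49 / 20 * al3 b0 b1 b2)) := by
  have hb' : b0 + b2 + b1 = 0 := by linarith
  have z1 := Z3_pos' a0 a1 a2 b0 b1 b2 ha hb ha0 ha1 ha2 hb0 hb1 hb2
  have z2 := Z3_pos' a0 a1 a2 b1 b2 b0 ha (by linarith) ha0 ha1 ha2 hb1 hb2 hb0
  have z3 := Z3_pos' a0 a1 a2 b2 b0 b1 ha (by linarith) ha0 ha1 ha2 hb2 hb0 hb1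
  have z4 := Z3_pos' a0 a1 a2 b0 b2 b1 ha hb' ha0 ha1 ha2 hb0 hb2 hb1
  have z5 := Z3_pos' a0 a1 a2 b2 b1 b0 ha (by linarith) ha0 ha1 ha2 hb2 hb1 hb0
  have z6 := Z3_pos' a0 a1 a2 b1 b0 b2 ha (by linarith) ha0 ha1 ha2 hb1 hb0 hb2
  have r1 := rot_sum a0 a1 a2 b0 b1 b2 ha hb z1 z2 z3
  have r2 := rot_sum a0 a1 a2 b0 b2 b1 ha hb' z4 z5 z6
  have d1 := DF_eq a0 a1 a2 b0 b1 b2 ha hb
  have d2 := DF_eq a0 a1 a2 b0 b2 b1 ha hb'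
  have sal : al3 b0 b2 b1 = al3 b0 b1 b2 := by unfold al3; ring
  have scu : cu3 b0 b2 b1 = cu3 b0 b1 b2 := by unfold cu3; ring
  have sdl : dl3 b0 b2 b1 = -dl3 b0 b1 b2 := by unfold dl3; ring
  rw [sal, scu, sdl] at r2 d2
  have p1 : 0 < Z3 a0 a1 a2 b0 b1 b2 * Z3 a0 a1 a2 b1 b2 b0 * Z3 a0 a1 a2 b2 b0 b1 :=
    mul_pos (mul_pos z1 z2) z3
  have p2 : 0 < Z3 a0 a1 a2 b0 b2 b1 * Z3 a0 a1 a2 b2 b1 b0 * Z3 a0 a1 a2 b1 b0 b2 :=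
    mul_pos (mul_pos z4 z5) z6
  rw [d1] at p1
  rw [d2] at p2
  have ca := cube_id a0 a1 a2 ha
  have cb := cube_id b0 b1 b2 hb
  have cb' : al3 b0 b1 b2 ^ 3 - cu3 b0 b1 b2 ^ 2 = (-dl3 b0 b1 b2) ^ 2 / 108 := by
    rw [cb]; ring
  obtain ⟨s, hs0, hs1, hsal, h1, h2, h3, hA⟩ :=
    ph3_dom a0 a1 a2 ha ha0.le ha1.le ha2.le
  obtain ⟨t, ht0, ht1, htbe, k1, k2, k3, hB⟩ := ph3_dom b0 b1 b2 hb hb0 hb1 hb2
  have hs2 : s ≤ 11 / 60 := by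
    rw [← hsal] at hsm
    exact (abs_le_of_sq_le_sq' hsm (by norm_num)).2
  have u1 := U_sq_le _ _ _ _ _ _ ca cb
  have u2 := U_sq_le _ _ _ _ _ _ ca cb'
  have f1 := half_boundA s t _ _ _ _ _ _ _ hs0 hs2 ht0 ht1 hsal htbe h2 h3 k1 k2 k3 hA hB u1 p1
  have f2 := half_boundA s t _ _ _ _ _ _ _ hs0 hs2 ht0 ht1 hsal htbe h2 h3 k1 k2 k3 hA hB u2 p2
  have hS : S6 (K2 a0 a1 a2) b0 b1 b2 =
      (K2 a0 a1 a2 b0 b1 b2 + K2 a0 a1 a2 b1 b2 b0 + K2 a0 a1 a2 b2 b0 b1)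
        + (K2 a0 a1 a2 b0 b2 b1 + K2 a0 a1 a2 b2 b1 b0 + K2 a0 a1 a2 b1 b0 b2) := by
    unfold S6; ring
  have hph : hh b0 b1 b2 - 1 + 49 / 20 * al3 b0 b1 b2
      = 2 * ph3W b0 b1 b2 + 9 / 20 * al3 b0 b1 b2 := by
    unfold ph3W; ring
  rw [hS, r1, r2, hph]
  linarith

end Vale.Agent.P154
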