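import Vale.Agent.P154.G.MergeB
import Vale.Agent.P154.AF.KeyA

/-!
# P154, negative eigenvalue: the weaker invariant `InvK`, small messages

`InvK w e : 1 - 49/20 Xf w e ≤ HfW w e`.  A message `lam * e`, `-11/60 ≤ lam ≤ 0`, is `SmallK` (`al3 ≤ (11/60)^2`), and every small experiment is `InvK`
(pointwise).  `InvK` is closed under combination with a small experiment, and `Xf` is subadditive with a gain.
-/

namespace Vale.Agent.P154

open Finset

variable {ι κ : Type} [Fintype ι] [Fintype κ] {w : ι → ℝ} {e : ι → Fin 3 → ℝ}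
  {v : κ → ℝ} {f : κ → Fin 3 → ℝ}

/-- the weaker invariant -/
def InvK (w : ι → ℝ) (e : ι → Fin 3 → ℝ) : Prop := 1 - 49 / 20 * Xf w e ≤ HfW w e

/-- all posteriors are close to uniform -/
def SmallK (e : ι → Fin 3 → ℝ) : Prop := ∀ η, al3 (e η 0) (e η 1) (e η 2) ≤ (11 / 60) ^ 2

theorem Good.le_two (h : Good w e) (η : ι) (i : Fin 3) : e η i ≤ 2 := by
  have z := h.zero η
  have g0 := h.ge η 0
  have g1 := h.ge η 1
  have g2 := h.ge η 2
  fin_cases i
  · show e η 0 ≤ 2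
    linarith
  · show e η 1 ≤ 2
    linarith
  · show e η 2 ≤ 2
    linarith

theorem Good.scaleN (h : Good w e) (lam : ℝ) (h0 : -1 / 2 ≤ lam) (h1 : lam ≤ 0) :
    Good w (fun η i => lam * e η i) := by
  refine ⟨h.pos, h.tot, ?_, ?_, ?_, ?_⟩
  · intro η
    have := h.zero η
    have e1 : lam * e η 0 + lam * e η 1 + lam * e η 2 = lam * (e η 0 + e η 1 + e η 2) := by ring
    rw [e1, this, mul_zero]
  · intro η i
    have := h.le_two η i
    nlinarith
  · intro g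
    exact h.rot (fun x y z => g (lam * x) (lam * y) (lam * z))
  · intro g
    exact h.swp (fun x y z => g (lam * x) (lam * y) (lam * z))

theorem Good.scaleN_strict (h : Good w e) (lam : ℝ) (h0 : -1 / 2 < lam) (h1 : lam ≤ 0) (η : ι)
    (i : Fin 3) : -1 < lam * e η i := by
  have := h.le_two η i
  nlinarith

theorem Good.scaleN_small (h : Good w e) (lam : ℝ) (h0 : -11 / 60 ≤ lam) (h1 : lam ≤ 0) :
    SmallK (fun η i => lam * e η i) := by
  intro η
  show al3 (lam * e η 0) (lam * e η 1) (lam * e η 2) ≤ (11 / 60) ^ 2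
  rw [al3_smul]
  have a0 := al3_nonneg (e η 0) (e η 1) (e η 2)
  have a1 := al3_le_one _ _ _ (h.zero η) (h.ge η 0) (h.ge η 1) (h.ge η 2)
  have l2 : lam ^ 2 ≤ (11 / 60) ^ 2 := by nlinarith
  calc lam ^ 2 * al3 (e η 0) (e η 1) (e η 2) ≤ lam ^ 2 * 1 :=
        mul_le_mul_of_nonneg_left a1 (sq_nonneg lam)
    _ ≤ (11 / 60) ^ 2 := by linarith

/-- pointwise form of `InvK` for a small posterior -/
theorem hh_small (x y z : ℝ) (h : x + y + z = 0) (hx : -1 ≤ x) (hy : -1 ≤ y) (hz : -1 ≤ z)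
    (hsm : al3 x y z ≤ (11 / 60) ^ 2) : 1 - 49 / 20 * al3 x y z ≤ hh x y z := by
  obtain ⟨s, hs0, -, hsal, -, h2, -, -⟩ := ph3_dom x y z h hx hy hz
  have hs2 : s ≤ 11 / 60 := by
    rw [← hsal] at hsm
    exact (abs_le_of_sq_le_sq' hsm (by norm_num)).2
  have hph : hh x y z - 1 + 49 / 20 * al3 x y z = 2 * ph3W x y z + 9 / 20 * s ^ 2 := by
    rw [hsal]; unfold ph3W; ring
  have h3 : 0 ≤ (1 - s) * (2 * ph3W x y z + 9 / 20 * s ^ 2) := by
    have e1 : 0 ≤ s ^ 2 * (9 / 20 - 49 / 20 * s) := mul_nonneg (sq_nonneg s) (by linarith)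
    nlinarith
  have h4 := nonneg_of_mul_nonneg_right h3 (by linarith : (0:ℝ) < 1 - s)
  linarith

theorem Good.Xf_small (h : Good w e) (hsm : SmallK e) : Xf w e ≤ (11 / 60) ^ 2 := by
  unfold Xf
  calc ∑ η, w η * al3 (e η 0) (e η 1) (e η 2) ≤ ∑ η, w η * (11 / 60) ^ 2 :=
        Finset.sum_le_sum fun η _ => mul_le_mul_of_nonneg_left (hsm η) (h.pos η).le
    _ = (11 / 60) ^ 2 := by rw [← Finset.sum_mul, h.tot, one_mul]

theorem InvK.of_small (h : Good w e) (hsm : SmallK e) : InvK w e := by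
  unfold InvK HfW Xf
  have hsum := Finset.sum_le_sum (fun η (_ : η ∈ Finset.univ) =>
    mul_le_mul_of_nonneg_left
      (hh_small _ _ _ (h.zero η) (h.ge η 0) (h.ge η 1) (h.ge η 2) (hsm η)) (h.pos η).le)
  refine le_trans (le_of_eq ?_) hsum
  have hexp : ∀ η, w η * (1 - 49 / 20 * al3 (e η 0) (e η 1) (e η 2)) =
      w η - 49 / 20 * (w η * al3 (e η 0) (e η 1) (e η 2)) := by
    intro η; ring
  simp only [hexp]
  rw [Finset.sum_sub_distrib, ← Finset.mul_sum, h.tot]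

/-- more information: take `x = 0`, `y = 1` in `lin_term`, `lin_sum` -/
theorem key_mono2 (a0 a1 a2 b0 b1 b2 : ℝ) (ha : a0 + a1 + a2 = 0) (hb : b0 + b1 + b2 = 0)
    (ha0 : -1 < a0) (ha1 : -1 < a1) (ha2 : -1 < a2)
    (hb0 : -1 ≤ b0) (hb1 : -1 ≤ b1) (hb2 : -1 ≤ b2) :
    6 * al3 b0 b1 b2 ≤ S6 (K2 a0 a1 a2) b0 b1 b2 := by
  have hS := S6_lin_le 0 1 a0 a1 a2 b0 b1 b2 ha hb ha0 ha1 ha2 hb0 hb1 hb2
  rw [lin_sum _ _ a0 a1 a2 b0 b1 b2 ha hb] at hS
  refine le_trans (le_of_eq ?_) hS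
  ring

theorem merge_X_mono2 (h : Good w e) (hs : ∀ η i, -1 < e η i) (h' : Good v f) :
    Xf v f ≤ Xf (wMW w e v f) (eMW e f) := by
  rw [Xf_merge_eqW]
  have hin : ∀ η, Xf v f ≤
      ∑ y, v y * K2 (e η 0) (e η 1) (e η 2) (f y 0) (f y 1) (f y 2) := by
    intro η
    exact h'.inner_ge (K2 (e η 0) (e η 1) (e η 2))
      (fun y => al3 (f y 0) (f y 1) (f y 2))
      (fun y => key_mono2 _ _ _ _ _ _ (h.zero η) (h'.zero y) (hs η 0) (hs η 1) (hs η 2)
        (h'.ge y 0) (h'.ge y 1) (h'.ge y 2))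
  have hsum := Finset.sum_le_sum (fun η (_ : η ∈ Finset.univ) =>
    mul_le_mul_of_nonneg_left (hin η) (h.pos η).le)
  refine le_trans (le_of_eq ?_) hsum
  rw [← Finset.sum_mul, h.tot, one_mul]

/-- closure of the weaker invariant under combination with a small experiment -/
theorem InvK.merge (h : Good w e) (hs : ∀ η i, -1 < e η i) (hsm : SmallK e) (h' : Good v f)
    (hi' : InvK v f) : InvK (wMW w e v f) (eMW e f) := by
  have hi := InvK.of_small h hsm
  have hx1 := h.Xf_small hsm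
  unfold InvK at *
  have hH := merge_H h hs h'
  have hL := merge_X_low h hs h'
  have hM := merge_X_mono2 h hs h'
  have n1 := h.Hf_nonneg
  have n2 := h'.Hf_nonneg
  have p1 := h.Xf_nonneg
  have p2 := h'.Xf_nonneg
  set x1 := Xf w e
  set x2 := Xf v f
  set H1 := HfW w e
  set H2 := HfW v f
  set x' := Xf (wMW w e v f) (eMW e f)
  set H' := HfW (wMW w e v f) (eMW e f)
  have hH0 : 0 ≤ H' := le_trans (mul_nonneg n1 n2) hH
  have c1 : 0 ≤ 1 - 49 / 20 * x1 := by linarith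
  rcases le_or_gt 0 (1 - 49 / 20 * x2) with c2 | c2
  · have h3 : (1 - 49 / 20 * x1) * (1 - 49 / 20 * x2) ≤ H1 * H2 := mul_le_mul hi hi' c2 n1
    have h4 : 0 ≤ x1 * x2 := mul_nonneg p1 p2
    nlinarith
  · linarith

/-- the inner sum, bounded with `key_xa` -/
theorem merge_inner_upA (h : Good w e) (hs : ∀ η i, -1 < e η i) (hsm : SmallK e) (h' : Good v f)
    (η : ι) :
    ∑ y, v y * K2 (e η 0) (e η 1) (e η 2) (f y 0) (f y 1) (f y 2) ≤
      al3 (e η 0) (e η 1) (e η 2) + Xf v f - 1 / 250 * al3 (e η 0) (e η 1) (e η 2) * Xf v f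
        - 171 / 250 * al3 (e η 0) (e η 1) (e η 2) * (HfW v f - 1 + 49 / 20 * Xf v f) := by
  have hsx := h'.six (fun x y z => K2 (e η 0) (e η 1) (e η 2) x y z)
  rw [hsx]
  have hterm : ∀ y, v y * S6 (fun x y z => K2 (e η 0) (e η 1) (e η 2) x y z)
        (f y 0) (f y 1) (f y 2) ≤
      v y * (6 * (al3 (e η 0) (e η 1) (e η 2) + al3 (f y 0) (f y 1) (f y 2)
        - 1 / 250 * al3 (e η 0) (e η 1) (e η 2) * al3 (f y 0) (f y 1) (f y 2)
        - 171 / 250 * al3 (e η 0) (e η 1) (e η 2)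
          * (hh (f y 0) (f y 1) (f y 2) - 1 + 49 / 20 * al3 (f y 0) (f y 1) (f y 2)))) := by
    intro y
    have hk := key_xa _ _ _ _ _ _ (h.zero η) (h'.zero y) (hs η 0) (hs η 1) (hs η 2)
      (h'.ge y 0) (h'.ge y 1) (h'.ge y 2) (hsm η)
    exact mul_le_mul_of_nonneg_left hk (h'.pos y).le
  have hsum := Finset.sum_le_sum (fun y (_ : y ∈ Finset.univ) => hterm y)
  refine (mul_le_mul_of_nonneg_left hsum (by norm_num : (0:ℝ) ≤ 1 / 6)).trans (le_of_eq ?_)
  have htot := h'.tot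
  set p := al3 (e η 0) (e η 1) (e η 2)
  have hexp : ∀ y, v y * (6 * (p + al3 (f y 0) (f y 1) (f y 2)
        - 1 / 250 * p * al3 (f y 0) (f y 1) (f y 2)
        - 171 / 250 * p * (hh (f y 0) (f y 1) (f y 2) - 1 + 49 / 20 * al3 (f y 0) (f y 1) (f y 2)))) =
      (6 * p + 6 * (171 / 250) * p) * v y
        + (6 - 6 / 250 * p - 6 * (171 / 250) * (49 / 20) * p) * (v y * al3 (f y 0) (f y 1) (f y 2))
        + (-6 * (171 / 250) * p) * (v y * hh (f y 0) (f y 1) (f y 2)) := by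
    intro y; ring
  simp only [hexp]
  rw [Finset.sum_add_distrib, Finset.sum_add_distrib, ← Finset.mul_sum,
    ← Finset.mul_sum, ← Finset.mul_sum, htot]
  unfold Xf HfW
  ring

/-- subadditivity with a gain -/
theorem merge_XA (h : Good w e) (hs : ∀ η i, -1 < e η i) (hsm : SmallK e) (h' : Good v f)
    (hi' : InvK v f) :
    Xf (wMW w e v f) (eMW e f) ≤ Xf w e + Xf v f - 1 / 250 * Xf w e * Xf v f := by
  rw [Xf_merge_eqW]
  unfold InvK at hi'
  have hin : ∀ η, ∑ y, v y * K2 (e η 0) (e η 1) (e η 2) (f y 0) (f y 1) (f y 2) ≤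
      al3 (e η 0) (e η 1) (e η 2) + Xf v f - 1 / 250 * al3 (e η 0) (e η 1) (e η 2) * Xf v f := by
    intro η
    have h1 := merge_inner_upA h hs hsm h' η
    have h2 : 0 ≤ 171 / 250 * al3 (e η 0) (e η 1) (e η 2) * (HfW v f - 1 + 49 / 20 * Xf v f) :=
      mul_nonneg (mul_nonneg (by norm_num) (al3_nonneg _ _ _)) (by linarith)
    linarith
  have hsum := Finset.sum_le_sum (fun η (_ : η ∈ Finset.univ) =>
    mul_le_mul_of_nonneg_left (hin η) (h.pos η).le)
  refine hsum.trans (le_of_eq ?_)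
  have htot := h.tot
  set X := Xf v f
  have hexp : ∀ η, w η * (al3 (e η 0) (e η 1) (e η 2) + X
        - 1 / 250 * al3 (e η 0) (e η 1) (e η 2) * X) =
      X * w η + (1 - 1 / 250 * X) * (w η * al3 (e η 0) (e η 1) (e η 2)) := by
    intro η; ring
  simp only [hexp]
  rw [Finset.sum_add_distrib, ← Finset.mul_sum, ← Finset.mul_sum, htot]
  unfold Xf
  ring

end Vale.Agent.P154
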