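import Vale.Agent.P154.GW.ProdD
import Vale.Agent.P154.AF.MergeK

/-!
# P154, negative eigenvalue: observing `k` independent small experiments

Same as `GW/ProdD.lean`, with `InvK` in place of `Inv`; the pieces are `Good`, strictly inside the simplex and `SmallK`.
-/

namespace Vale.Agent.P154

open Finset

theorem prodK_all : ∀ (k : ℕ) (F : Fin k → Type) [∀ j, Fintype (F j)] (W : ∀ j, F j → ℝ)
    (E : ∀ j, F j → Fin 3 → ℝ), (∀ j, Good (W j) (E j)) → (∀ j η i, -1 < E j η i) →
    (∀ j, SmallK (E j)) → Good (wD W E) (eD E) ∧ InvK (wD W E) (eD E) := by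
  intro k
  induction k with
  | zero =>
    intro F _ W E _ _ _
    obtain ⟨g, iv, hx⟩ := prodD_zero W E
    refine ⟨g, ?_⟩
    unfold Inv at iv
    unfold InvK
    rw [hx] at iv ⊢
    linarith
  | succ k ih =>
    intro F _ W E h hs hi
    obtain ⟨g, iv⟩ := ih (fun j => F j.succ) (fun j => W j.succ) (fun j => E j.succ)
      (fun j => h j.succ) (fun j => hs j.succ) (fun j => hi j.succ)
    have hw : wD W E = fun η => wMW (W 0) (E 0) (wD (fun j : Fin k => W j.succ)
        (fun j : Fin k => E j.succ)) (eD (fun j : Fin k => E j.succ)) (cE F η) :=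
      funext (wD_succ W E h hs)
    have he : eD E = fun η => eMW (E 0) (eD (fun j : Fin k => E j.succ)) (cE F η) :=
      funext (eD_succ W E h hs)
    rw [hw, he]
    refine ⟨Good.of_equiv (cE F) (Good.mergeW (h 0) (hs 0) g), ?_⟩
    have := InvK.merge (h 0) (hs 0) (hi 0) g iv
    unfold InvK at this ⊢
    rw [Xf_equiv (cE F), Hf_equiv' (cE F)]
    exact this

theorem prodK_step {k : ℕ} {F : Fin (k + 1) → Type} [∀ j, Fintype (F j)] (W : ∀ j, F j → ℝ)
    (E : ∀ j, F j → Fin 3 → ℝ) (h : ∀ j, Good (W j) (E j)) (hs : ∀ j η i, -1 < E j η i)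
    (hi : ∀ j, SmallK (E j)) :
    Xf (wD W E) (eD E) ≤ Xf (W 0) (E 0)
      + Xf (wD (fun j : Fin k => W j.succ) (fun j : Fin k => E j.succ)) (eD (fun j : Fin k => E j.succ))
      - 1 / 250 * Xf (W 0) (E 0)
        * Xf (wD (fun j : Fin k => W j.succ) (fun j : Fin k => E j.succ)) (eD (fun j : Fin k => E j.succ)) := by
  obtain ⟨g, iv⟩ := prodK_all k (fun j => F j.succ) (fun j => W j.succ) (fun j => E j.succ)
    (fun j => h j.succ) (fun j => hs j.succ) (fun j => hi j.succ)
  have hw : wD W E = fun η => wMW (W 0) (E 0) (wD (fun j : Fin k => W j.succ)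
      (fun j : Fin k => E j.succ)) (eD (fun j : Fin k => E j.succ)) (cE F η) :=
    funext (wD_succ W E h hs)
  have he : eD E = fun η => eMW (E 0) (eD (fun j : Fin k => E j.succ)) (cE F η) :=
    funext (eD_succ W E h hs)
  rw [hw, he, Xf_equiv (cE F)]
  exact merge_XA (h 0) (hs 0) (hi 0) g iv

end Vale.Agent.P154
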