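import Vale.Agent.P154.GW.TreeTC
import Vale.Agent.P154.AF.ProdK

/-!
# P154, negative eigenvalue: the experiment attached to a fixed tree

Same as `GW/TreeTB.lean`, `GW/TreeTC.lean` for `-11/60 ≤ lam ≤ 0`.
-/

namespace Vale.Agent.P154

open Finset

theorem evT_succN (lam : ℝ) (h0 : -1 / 2 < lam) (h1 : lam ≤ 0) (n : ℕ) (T : GT (n + 1))
    (h : ∀ j, Good (margT 3 lam n (T.2 j)) (evT lam n (T.2 j))) :
    evT lam (n + 1) T = eD (fun j ξ i => lam * evT lam n (T.2 j) ξ i) := by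
  funext η i
  have hs : ∀ (j : Fin T.1) (ξ : ConfT 3 n (T.2 j)) (i : Fin 3),
      -1 < lam * evT lam n (T.2 j) ξ i := fun j ξ i => (h j).scaleN_strict lam h0 h1 ξ i
  have hS := (sD_pos (fun (j : Fin T.1) ξ i => lam * evT lam n (T.2 j) ξ i) hs η).ne'
  have hP : (∏ k : Fin T.1, margT 3 lam n (T.2 k) (η k)) ≠ 0 :=
    (Finset.prod_pos (fun k _ => (h k).pos (η k))).ne'
  have : evT lam (n + 1) T η i =
      3 * ((1 / ((3 : ℕ) : ℝ)) * likT 3 lam (n + 1) T i η / margT 3 lam (n + 1) T η) - 1 := rfl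
  rw [this, margT_succ lam n T h, likT_succ lam n T h]
  simp only [wD, eD]
  push_cast
  field_simp

theorem treeT_goodN (lam : ℝ) (h0 : -11 / 60 ≤ lam) (h1 : lam ≤ 0) (n : ℕ) (T : GT n) :
    Good (margT 3 lam n T) (evT lam n T) := by
  have h0' : -1 / 2 < lam := by linarith
  induction n with
  | zero => exact baseT_good lam T
  | succ n ih =>
    have hg : ∀ j, Good (margT 3 lam n (T.2 j)) (evT lam n (T.2 j)) := fun j => ih (T.2 j)
    rw [margT_succ lam n T hg, evT_succN lam h0' h1 n T hg]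
    exact (prodK_all T.1 (fun j => ConfT 3 n (T.2 j)) (fun j => margT 3 lam n (T.2 j))
      (fun j ξ i => lam * evT lam n (T.2 j) ξ i) (fun j => (hg j).scaleN lam h0'.le h1)
      (fun j η i => (hg j).scaleN_strict lam h0' h1 η i)
      (fun j => (hg j).scaleN_small lam h0 h1)).1

theorem xT_succN (lam : ℝ) (h0 : -11 / 60 ≤ lam) (h1 : lam ≤ 0) (n : ℕ) (T : GT (n + 1)) :
    xT lam (n + 1) T = XK lam n T.1 T.2 := by
  have hg : ∀ j, Good (margT 3 lam n (T.2 j)) (evT lam n (T.2 j)) :=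
    fun j => treeT_goodN lam h0 h1 n (T.2 j)
  unfold xT XK
  rw [margT_succ lam n T hg, evT_succN lam (by linarith) h1 n T hg]
  rfl

theorem xT_nonnegN (lam : ℝ) (h0 : -11 / 60 ≤ lam) (h1 : lam ≤ 0) (n : ℕ) (T : GT n) :
    0 ≤ xT lam n T :=
  (treeT_goodN lam h0 h1 n T).Xf_nonneg

theorem xT_le_oneN (lam : ℝ) (h0 : -11 / 60 ≤ lam) (h1 : lam ≤ 0) (n : ℕ) (T : GT n) :
    xT lam n T ≤ 1 :=
  (treeT_goodN lam h0 h1 n T).Xf_le_oneW

theorem XK_goodN (lam : ℝ) (h0 : -11 / 60 ≤ lam) (h1 : lam ≤ 0) (n k : ℕ) (c : Fin k → GT n) :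
    Good (wD (fun j => margT 3 lam n (c j)) (fun j ξ i => lam * evT lam n (c j) ξ i))
      (eD (fun j ξ i => lam * evT lam n (c j) ξ i)) :=
  (prodK_all k (fun j => ConfT 3 n (c j)) (fun j => margT 3 lam n (c j))
    (fun j ξ i => lam * evT lam n (c j) ξ i)
    (fun j => (treeT_goodN lam h0 h1 n (c j)).scaleN lam (by linarith) h1)
    (fun j η i => (treeT_goodN lam h0 h1 n (c j)).scaleN_strict lam (by linarith) h1 η i)
    (fun j => (treeT_goodN lam h0 h1 n (c j)).scaleN_small lam h0 h1)).1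

theorem XK_nonnegN (lam : ℝ) (h0 : -11 / 60 ≤ lam) (h1 : lam ≤ 0) (n k : ℕ) (c : Fin k → GT n) :
    0 ≤ XK lam n k c :=
  (XK_goodN lam h0 h1 n k c).Xf_nonneg

theorem XK_le_oneN (lam : ℝ) (h0 : -11 / 60 ≤ lam) (h1 : lam ≤ 0) (n k : ℕ) (c : Fin k → GT n) :
    XK lam n k c ≤ 1 :=
  (XK_goodN lam h0 h1 n k c).Xf_le_oneW

theorem XK_succN (lam : ℝ) (h0 : -11 / 60 ≤ lam) (h1 : lam ≤ 0) (n k : ℕ)
    (c : Fin (k + 1) → GT n) :
    XK lam n (k + 1) c ≤ lam ^ 2 * xT lam n (c 0) + XK lam n k (Fin.tail c)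
      - 1 / 250 * (lam ^ 2 * xT lam n (c 0)) * XK lam n k (Fin.tail c) := by
  have hst := prodK_step (F := fun j => ConfT 3 n (c j)) (fun j => margT 3 lam n (c j))
    (fun j ξ i => lam * evT lam n (c j) ξ i)
    (fun j => (treeT_goodN lam h0 h1 n (c j)).scaleN lam (by linarith) h1)
    (fun j η i => (treeT_goodN lam h0 h1 n (c j)).scaleN_strict lam (by linarith) h1 η i)
    (fun j => (treeT_goodN lam h0 h1 n (c j)).scaleN_small lam h0 h1)
  have hsc : Xf (margT 3 lam n (c 0)) (fun ξ i => lam * evT lam n (c 0) ξ i)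
      = lam ^ 2 * xT lam n (c 0) := Xf_scale _ _ lam
  rw [hsc] at hst
  exact hst

/-- total variation on a fixed tree -/
theorem aT_sq_leN (lam : ℝ) (h0 : -11 / 60 ≤ lam) (h1 : lam ≤ 0) (n : ℕ) (T : GT n) :
    0 ≤ aT 3 lam n T ∧ aT 3 lam n T ^ 2 ≤ xT lam n T / 2 := by
  have hg := treeT_goodN lam h0 h1 n T
  rw [aT_eq]
  refine ⟨?_, hg.tv_sq_le⟩
  refine Finset.sum_nonneg fun η _ => mul_nonneg (hg.pos η).le ?_
  positivity

end Vale.Agent.P154
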