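import Vale.Agent.P154.GW.Reg
import Vale.Agent.P154.AF.TreeK

/-!
# P154, negative eigenvalue: nonreconstruction for three colours, `-11/60 ≤ lam ≤ 0`, `d lam^2 ≤ 1`, both tree models

Same as `GW/MainGW.lean` and `GW/Reg.lean`; the gain is `1/250` in place of `1/10` (`sig_le` is applied to `y / 25`, `X / 25`).
-/

namespace Vale.Agent.P154

open Finset Filter Topology

theorem XG_nonnegN (d lam : ℝ) (hd : 0 ≤ d) (h0 : -11 / 60 ≤ lam) (h1 : lam ≤ 0) (n : ℕ) :
    0 ≤ XG d lam n := by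
  unfold XG
  exact tsum_nonneg fun T => mul_nonneg (probT_nonneg d hd n T) (xT_nonnegN lam h0 h1 n T)

theorem XG_stepN (d lam : ℝ) (hd : 0 ≤ d) (h0 : -11 / 60 ≤ lam) (h1 : lam ≤ 0) (n : ℕ) :
    XG d lam (n + 1) ≤ d * lam ^ 2 * XG d lam n - pois d 2 / 250 * lam ^ 4 * XG d lam n ^ 2 := by
  have hl2 : lam ^ 2 ≤ 1 := by nlinarith
  have key := sig_le (probT_nonneg d hd n) (probT_hasSum d hd n) d hd
    (fun T => lam ^ 2 * xT lam n T / 25)
    (fun T => div_nonneg (mul_nonneg (sq_nonneg lam) (xT_nonnegN lam h0 h1 n T)) (by norm_num))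
    (fun T => by
      have a := xT_nonnegN lam h0 h1 n T
      have b := xT_le_oneN lam h0 h1 n T
      nlinarith [sq_nonneg lam])
    (fun k c => XK lam n k c / 25)
    (fun k c => div_nonneg (XK_nonnegN lam h0 h1 n k c) (by norm_num))
    (fun k c => by
      have := XK_le_oneN lam h0 h1 n k c
      linarith)
    (fun c => by
      show XK lam n 0 c / 25 = 0
      rw [XK_zero]; simp)
    (fun k c => by
      have := XK_succN lam h0 h1 n k c
      show XK lam n (k + 1) c / 25 ≤ lam ^ 2 * xT lam n (c 0) / 25 + XK lam n k (Fin.tail c) / 25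
        - 1 / 10 * (lam ^ 2 * xT lam n (c 0) / 25) * (XK lam n k (Fin.tail c) / 25)
      linarith)
  have e1 : XG d lam (n + 1) / 25 =
      ∑' T : Σ k : ℕ, (Fin k → GT n),
        pois d T.1 * (∏ j, probT d n (T.2 j)) * (XK lam n T.1 T.2 / 25) := by
    unfold XG
    rw [← tsum_div_const]
    refine tsum_congr fun T => ?_
    rw [xT_succN lam h0 h1 n T]
    show pois d T.1 * (∏ j, probT d n (T.2 j)) * XK lam n T.1 T.2 / 25 = _
    ring
  have e2 : ∑' a, probT d n a * (lam ^ 2 * xT lam n a / 25) = lam ^ 2 / 25 * XG d lam n := by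
    unfold XG
    rw [← tsum_mul_left]
    refine tsum_congr fun T => ?_
    ring
  rw [e2, ← e1] at key
  nlinarith [key]

theorem XG_tendstoN (d lam : ℝ) (hd : 0 < d) (h0 : -11 / 60 ≤ lam) (h1 : lam < 0)
    (h2 : d * lam ^ 2 ≤ 1) : Tendsto (XG d lam) atTop (𝓝 0) := by
  have hp : 0 < pois d 2 := by
    unfold pois
    positivity
  have hl : 0 < lam ^ 4 := by
    have : lam ≠ 0 := h1.ne
    positivity
  exact seq_zeroGW (XG d lam) (d * lam ^ 2) (pois d 2 / 250 * lam ^ 4) h2 (by positivity)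
    (XG_nonnegN d lam hd.le h0 h1.le) (XG_stepN d lam hd.le h0 h1.le)

theorem gw_nonreconstructionN (d lam : ℝ) (hd : 0 < d) (h0 : -11 / 60 ≤ lam) (h1 : lam < 0)
    (h2 : d * lam ^ 2 ≤ 1) : Tendsto (fun n => aGW 3 d lam n) atTop (𝓝 0) := by
  have hj : ∀ n, 0 ≤ aGW 3 d lam n ∧ aGW 3 d lam n ^ 2 ≤ XG d lam n / 2 := by
    intro n
    exact jensen_sq (probT_nonneg d hd.le n) (probT_hasSum d hd.le n) (aT 3 lam n) (xT lam n)
      (fun T => (aT_sq_leN lam h0 h1.le n T).1) (fun T => (aT_sq_leN lam h0 h1.le n T).2)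
      (xT_le_oneN lam h0 h1.le n)
  exact tendsto_of_sq_le _ _ (fun n => (hj n).1) (fun n => (hj n).2) (XG_tendstoN d lam hd h0 h1 h2)

/-- `k` equal children -/
theorem XK_constN (lam : ℝ) (h0 : -11 / 60 ≤ lam) (h1 : lam ≤ 0) (n : ℕ) (t : GT n) (k : ℕ) :
    XK lam n k (fun _ => t) ≤ k * (lam ^ 2 * xT lam n t) ∧
      (2 ≤ k → XK lam n k (fun _ => t) ≤
        k * (lam ^ 2 * xT lam n t) - 1 / 250 * (lam ^ 2 * xT lam n t) ^ 2) := by
  have hx0 := xT_nonnegN lam h0 h1 n t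
  have hx1 := xT_le_oneN lam h0 h1 n t
  have hl2 : lam ^ 2 ≤ 1 := by nlinarith
  have hy0 : 0 ≤ lam ^ 2 * xT lam n t := mul_nonneg (sq_nonneg lam) hx0
  have hy1 : lam ^ 2 * xT lam n t ≤ 1 := by nlinarith [sq_nonneg lam]
  induction k with
  | zero =>
    refine ⟨?_, fun h => by omega⟩
    rw [XK_zero]
    simp
  | succ k ih =>
    obtain ⟨i1, i2⟩ := ih
    have hs := XK_succN lam h0 h1 n k (fun _ => t)
    have htail : Fin.tail (fun _ : Fin (k + 1) => t) = fun _ : Fin k => t := rfl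
    rw [htail] at hs
    have hX0 := XK_nonnegN lam h0 h1 n k (fun _ => t)
    set y := lam ^ 2 * xT lam n t with hy
    set X := XK lam n k (fun _ => t) with hX
    refine ⟨?_, fun hk => ?_⟩
    · push_cast
      nlinarith [mul_nonneg hy0 hX0]
    · push_cast
      rcases Nat.lt_or_ge k 2 with hlt | hge
      · have hk1 : k = 1 := by omega
        subst hk1
        push_cast at i1 ⊢
        nlinarith [mul_nonneg hy0 hX0,
          mul_le_mul_of_nonneg_right i1 (by linarith : (0:ℝ) ≤ 1 - y / 250)]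
      · have := i2 hge
        nlinarith [mul_nonneg hy0 hX0]

theorem xreg_stepN (d : ℕ) (hd : 2 ≤ d) (lam : ℝ) (h0 : -11 / 60 ≤ lam) (h1 : lam ≤ 0) (n : ℕ) :
    xT lam (n + 1) (regT d (n + 1)) ≤
      d * lam ^ 2 * xT lam n (regT d n) - 1 / 250 * lam ^ 4 * xT lam n (regT d n) ^ 2 := by
  rw [xT_succN lam h0 h1 n (regT d (n + 1))]
  have := (XK_constN lam h0 h1 n (regT d n) d).2 hd
  calc XK lam n d (fun _ => regT d n) ≤ _ := this
    _ = _ := by ring

/-- nonreconstruction on the `d`-ary tree, negative eigenvalue -/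
theorem reg_nonreconstructionN (d : ℕ) (hd : 2 ≤ d) (lam : ℝ) (h0 : -11 / 60 ≤ lam) (h1 : lam < 0)
    (h2 : (d : ℝ) * lam ^ 2 ≤ 1) : Tendsto (fun n => aTV 3 d lam n) atTop (𝓝 0) := by
  have hl : 0 < lam ^ 4 := by
    have : lam ≠ 0 := h1.ne
    positivity
  have hx : Tendsto (fun n => xT lam n (regT d n)) atTop (𝓝 0) :=
    seq_zeroGW (fun n => xT lam n (regT d n)) (d * lam ^ 2) (1 / 250 * lam ^ 4) h2
      (by positivity) (fun n => xT_nonnegN lam h0 h1.le n _) (xreg_stepN d hd lam h0 h1.le)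
  have he : (fun n => aTV 3 d lam n) = fun n => aT 3 lam n (regT d n) :=
    funext fun n => (aT_regT 3 d lam n).symm
  rw [he]
  exact tendsto_of_sq_le _ _ (fun n => (aT_sq_leN lam h0 h1.le n _).1)
    (fun n => (aT_sq_leN lam h0 h1.le n _).2) hx

end Vale.Agent.P154
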